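import Vale.Agent.P105.Quartic

namespace Vale.Agent.Results.P105.Salem

open Vale.Agent.P105

theorem result :
    (∃ l : ℝ, 1 / 2 < l ∧ l < 1 ∧ l ^ 4 - l ^ 3 - l ^ 2 - l + 1 = 0 ∧
      ¬ IsPisot l⁻¹ ∧ IsSingular (bernoulliConv l)) ∧
    (∀ (a b : ℤ) (x : ℝ) (z : ℂ), 1 < x → x ^ 4 + a * x ^ 3 + b * x ^ 2 + a * x + 1 = 0 →
      ‖z‖ = 1 → z ^ 4 + a * z ^ 3 + b * z ^ 2 + a * z + 1 = 0 →
      IsSingular (bernoulliConv x⁻¹)) :=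
  ⟨exists_example, fun _ _ _ _ hx h1 hz h2 => singular_of_quartic hx hz h1 h2⟩

end Vale.Agent.Results.P105.Salem
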